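import Vale.Agent.P127H.FinD

/-!
# P127: Kakeya sets with a Hölder continuous choice of the segments, in every dimension
-/

open MeasureTheory Metric Set

namespace Vale.Agent.Results.P127.HolderKakeya

/-- `K` contains a unit segment in every direction near the unit vector `e₀`, and the segments can be chosen
`α`-Hölder continuous in the direction: for some `a`, `r > 0`, `C`, for all unit vectors `e`, `e'` at distance
less than `r` from `e₀`, the segment `{a e + t e : 0 ≤ t ≤ 1}` lies in `K` and `|a e - a e'| ≤ C |e - e'|^α`. -/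
def HolderSegments {n : ℕ} (K : Set (EuclideanSpace ℝ (Fin n))) (e₀ : EuclideanSpace ℝ (Fin n))
    (α : ℝ) : Prop :=
  ∃ (a : EuclideanSpace ℝ (Fin n) → EuclideanSpace ℝ (Fin n)) (r C : ℝ), 0 < r ∧ 0 ≤ C ∧
    (∀ e, ‖e‖ = 1 → ‖e - e₀‖ < r → ∀ t ∈ Icc (0 : ℝ) 1, a e + t • e ∈ K) ∧
    ∀ e e', ‖e‖ = 1 → ‖e'‖ = 1 → ‖e - e₀‖ < r → ‖e' - e₀‖ < r →
      ‖a e - a e'‖ ≤ C * ‖e - e'‖ ^ α

/-- Positive Lebesgue (outer) measure. -/
def PosMeasure {n : ℕ} (K : Set (EuclideanSpace ℝ (Fin n))) : Prop := 0 < volume K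

/-- `a` is `α`-Hölder continuous on the set `B` of `ℝᵐ` (sup norm). -/
def HolderOnSet {m : ℕ} (a : (Fin m → ℝ) → (Fin m → ℝ)) (B : Set (Fin m → ℝ)) (α : ℝ) : Prop :=
  ∃ C : ℝ, 0 ≤ C ∧ ∀ v ∈ B, ∀ w ∈ B, ‖a v - a w‖ ≤ C * ‖v - w‖ ^ α

/-- The heights `t` for which `{a v + t v : v ∈ B}` is Lebesgue null. -/
def nullHeights {m : ℕ} (a : (Fin m → ℝ) → (Fin m → ℝ)) (B : Set (Fin m → ℝ)) : Set ℝ :=
  {t : ℝ | volume ((fun v => a v + t • v) '' B) = 0}

/-- In `ℝⁿ`, every `n ≥ 2`: let `K` contain unit segments in all directions near ONE unit vector `e₀`, chosen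
`α`-Hölder continuously in the direction, `0 < α ≤ 1`.
(1) If `α > (n-2)/(n-1)` then `K` has positive Lebesgue (outer) measure and `dim_H K = n`.
(2) If `1 ≤ k ≤ n-1` and `α > (k-1)/k` then `dim_H K ≥ k+1`.
(3) The slices: if `a : ℝᵐ → ℝᵐ` is `α`-Hölder on a set `B` with interior points and `α > (m-1)/m`, then the
set `{a v + t v : v ∈ B}` is Lebesgue null for at most `m` real numbers `t`. -/
theorem result :
    (∀ (n : ℕ), 2 ≤ n → ∀ (K : Set (EuclideanSpace ℝ (Fin n))) (e₀ : EuclideanSpace ℝ (Fin n))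
      (α : ℝ), ‖e₀‖ = 1 → 0 < α → α ≤ 1 → HolderSegments K e₀ α →
      (((n : ℝ) - 2) / ((n : ℝ) - 1) < α → PosMeasure K ∧ dimH K = n) ∧
      ∀ k : ℕ, 1 ≤ k → k < n → ((k : ℝ) - 1) / k < α → ((k + 1 : ℕ) : ENNReal) ≤ dimH K) ∧
    (∀ (m : ℕ) (a : (Fin m → ℝ) → (Fin m → ℝ)) (B : Set (Fin m → ℝ)) (α : ℝ), 1 ≤ m →
      (interior B).Nonempty → 0 < α → α ≤ 1 → ((m : ℝ) - 1) / m < α → HolderOnSet a B α →
      (nullHeights a B).encard ≤ m) := by
  refine ⟨?_, ?_⟩
  · rintro n hn K e₀ α he₀ hα hα1 ⟨a, r, C, hr, hC, hK, ha⟩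
    refine ⟨fun h => ?_, ?_⟩
    · obtain ⟨m, rfl⟩ : ∃ m, n = m + 1 := ⟨n - 1, by omega⟩
      have hm : (0 : ℝ) < (m : ℝ) := by
        have : 0 < m := by omega
        exact_mod_cast this
      have hmα : (m : ℝ) - 1 < m * α := by
        rw [div_lt_iff₀ (by push_cast; linarith)] at h
        push_cast at h
        linarith
      have hvol : volume K ≠ 0 :=
        P127H.finb (m := m) (by simp) hr he₀ hC hα hα1 hmα ha hK
      refine ⟨pos_iff_ne_zero.2 hvol, le_antisymm ?_ ?_⟩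
      · refine (dimH_mono (subset_univ K)).trans ?_
        rw [Real.dimH_univ_eq_finrank, finrank_euclideanSpace_fin]
      · have := P127H.dimH_of_volume_ne_zero hvol
        rwa [finrank_euclideanSpace_fin] at this
    · intro k hk1 hkn hkα
      have hk0 : (0 : ℝ) < (k : ℝ) := by exact_mod_cast hk1
      have hkα' : (k : ℝ) - 1 < k * α := by
        rw [div_lt_iff₀ hk0] at hkα
        linarith
      obtain ⟨V, hV1, hV2⟩ := P127H.exists_sub he₀ k hkn
      exact (P127H.finc hr he₀ hC hα hα1 ha hK V hV1 hV2 hkα').2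
  · rintro m a B α hm ⟨c, hc⟩ hα hα1 hmα ⟨C, hC, ha⟩
    have hm0 : (0 : ℝ) < (m : ℝ) := by exact_mod_cast hm
    obtain ⟨r, hr, hrB⟩ := Metric.nhds_basis_closedBall.mem_iff.1 (mem_interior_iff_mem_nhds.1 hc)
    have hmα' : (m : ℝ) - 1 < m * α := by
      rw [div_lt_iff₀ hm0] at hmα
      linarith
    refine (Set.encard_le_encard ?_).trans (P127H.slices hr hC hα hα1 hmα'
      (fun v hv w hw => ha v (hrB hv) w (hrB hw)))
    intro t ht
    exact measure_mono_null (image_mono hrB) ht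

end Vale.Agent.Results.P127.HolderKakeya
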